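import Vale.Agent.P034.Main

namespace Vale.Agent.Results.P034.Talagrand

open Vale.Agent.P034

/-- Talagrand's conjecture: the fractional expectation threshold is at most a universal constant
times the expectation threshold. -/
theorem result : ∃ K : ℝ, ∀ (X : Type) [Fintype X] [DecidableEq X] [Nonempty X]
    (F : Set (Finset X)), F.Nonempty → IsUpperSet F → ∅ ∉ F →
      fracThreshold F ≤ K * expThreshold F :=
  ⟨30001, fun _ _ _ _ F _ _ _ => frac_le F⟩

end Vale.Agent.Results.P034.Talagrand
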